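import Vale.Agent.Lib.P245.Wrap

open MeasureTheory Real
open scoped ContDiff
open Vale.Agent.Lib.P245

/-- For `ρ` a centered log-concave probability density on `ℝⁿ`, linearly `a`-subgaussian, with a
Poincare constant `P` on compactly supported smooth functions, every compactly supported smooth `g`
satisfies the log-Sobolev inequality with constant `201 (a⁴ n P)^(1/3) + 288 a² + 6 P`. The only
hypothesis beyond these is the Bakry-Emery theorem for Gaussian tilts of log-concave densities. -/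
theorem Vale.Agent.Results.P245.A_cube_root.result (n : ℕ) (n_pos : 0 < n) (hBE : BakryEmery n)
    {ρ : X n → ℝ} (hρ : LCDensity ρ) {a : ℝ} (ha : 0 < a) (hc : ∀ i, ∫ x, x i * ρ x = 0)
    (hi : ∀ θ : X n, nsq θ = 1 → Integrable (fun x => exp (dot x θ ^ 2 / a ^ 2) * ρ x))
    (hs : ∀ θ : X n, nsq θ = 1 → ∫ x, exp (dot x θ ^ 2 / a ^ 2) * ρ x ≤ 2)
    {P : ℝ} (hP : 0 < P)
    (hPoin : ∀ g : X n → ℝ, ContDiff ℝ ∞ g → HasCompactSupport g →
      (∫ x, g x ^ 2 * ρ x) - (∫ x, g x * ρ x) ^ 2 ≤ P * ∫ x, gradSq g x * ρ x)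
    {g : X n → ℝ} (hg : ContDiff ℝ ∞ g) (hgc : HasCompactSupport g) :
    (∫ x, g x ^ 2 * log (g x ^ 2) * ρ x) - (∫ x, g x ^ 2 * ρ x) * log (∫ x, g x ^ 2 * ρ x) ≤
      (201 * (a ^ 4 * n * P) ^ ((1 : ℝ) / 3) + 288 * a ^ 2 + 6 * P) * ∫ x, gradSq g x * ρ x :=
  lsi_density n_pos hBE hρ ha hc hi hs hP hPoin hg hgc
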